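import Mathlib
import Vale.Agent.Lib.P329.TwoSided

/-!
# P329: languages recognized by block products (two-sided semidirect products) of finite
commutative groups by finite aperiodic monoids have generalized star height at most one

Let `M` be a finite aperiodic monoid, `H` a finite commutative group, `α` a finite alphabet,
`φ : α → M` and `wt : M → α → M → H`. A word `w = a₁ ⋯ a_k` has the value `φ a₁ * ⋯ * φ a_k` in
`M`, and its `i`-th position has the weight `wt l_i a_i r_i`, where `l_i = φ a₁ * ⋯ * φ a_(i-1)`
is the value of the prefix before the position and `r_i = φ a_(i+1) * ⋯ * φ a_k` the value of
the suffix after it (in the statement the positions are the elements `i` of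
`List.finRange w.length`, numbered from zero; `w.take i`, `w.get i` and `w.drop (i + 1)` are
the prefix before the position, its letter and the suffix after it). The weight of the word is
the product in `H` of the weights of its positions. For every set `S` of pairs, the language of
the words whose pair (value, weight) lies in `S` is denoted by a generalized regular expression
(union, concatenation, complement, star) of star height at most one.

When the weights do not depend on the value of the suffix this is the statement for wreath
products; in general the statement covers the languages defined by counting, modulo an
integer, the positions at which the prefix lies in one star-free language and the suffix in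
another one.
-/

namespace Vale.Agent.Results.P329.AbelianBlockAperiodic

open Vale.Agent.Lib.P329

theorem result {M : Type} [Monoid M] [Finite M]
    (hM : ∀ x : M, ∃ n : ℕ, 1 ≤ n ∧ x ^ n = x ^ (n + 1))
    {H : Type} [CommGroup H] [Finite H]
    {α : Type} [Fintype α] (φ : α → M) (wt : M → α → M → H) (S : Set (M × H)) :
    ∃ E : GRE α, E.height ≤ 1 ∧
      E.lang = {w : List α | ((w.map φ).prod,
        ((List.finRange w.length).map (fun i =>
          wt ((w.take i.val).map φ).prod (w.get i) ((w.drop (i.val + 1)).map φ).prod)).prod)
            ∈ S} :=
  hasHeight_abelian_block_aperiodic (fun x => (hM x).imp fun _ h => h.2.symm) φ wt S

end Vale.Agent.Results.P329.AbelianBlockAperiodic
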