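import Mathlib
import Vale.Agent.Lib.P329.Elementary

/-!
# P329: languages recognized by a finite group that is an extension of a commutative group by
an elementary abelian group have generalized star height at most one

Let `G` be a finite group with a commutative normal subgroup `N` such that, for some prime `p`,
all commutators and all `p`-th powers of elements of `G` lie in `N`; in other words the quotient
`G / N` is an elementary abelian `p`-group (examples: every group with a commutative normal
subgroup of prime index, such as the dihedral groups and the alternating group on four letters;
the wreath products of a commutative group by an elementary abelian group).
For every finite alphabet `α`, every map `f : α → G` (which determines the morphism sending a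
word to the product of the images of its letters) and every subset `S` of `G`, the language of
the words whose image lies in `S` is denoted by a generalized regular expression (union,
concatenation, complement, star) of star height at most one.
-/

namespace Vale.Agent.Results.P329.AbelianByElementaryAbelian

open Vale.Agent.Lib.P329

theorem result {G : Type} [Group G] [Finite G] (N : Subgroup G) [N.Normal]
    (hN : ∀ a ∈ N, ∀ b ∈ N, a * b = b * a) (p : ℕ) (hp : p.Prime)
    (hcomm : ∀ x y : G, x * y * x⁻¹ * y⁻¹ ∈ N) (hexp : ∀ x : G, x ^ p ∈ N)
    {α : Type} [Fintype α] (f : α → G) (S : Set G) :
    ∃ E : GRE α, E.height ≤ 1 ∧ E.lang = {w : List α | (w.map f).prod ∈ S} :=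
  hasHeight_of_abelian_elementary N hN p hp hcomm hexp f S

end Vale.Agent.Results.P329.AbelianByElementaryAbelian
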