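import Mathlib
import Vale.Agent.Lib.P329.ClassThree

/-!
# P329: languages recognized by finite nilpotent groups of class at most three have generalized
star height at most one

First part. Let `G` be a finite nilpotent group of nilpotency class at most three. For every
finite alphabet `α`, every map `f : α → G` (which determines the morphism sending a word to the
product of the images of its letters) and every subset `S` of `G`, the language of the words
whose image lies in `S` is denoted by a generalized regular expression (union, concatenation,
complement, star) of star height at most one.

Second part. For a word `u` of length at most three over a finite alphabet `α` and an integer
`n ≥ 1`, consider the words `w` in which `u` occurs as a scattered subword a prescribed number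
of times modulo `n` (the occurrences are the sets of positions of `w` carrying `u`; their number
is the number of entries equal to `u` in the list `w.sublists` of all sublists of `w`). These
languages are denoted by generalized regular expressions of star height at most one.

The proof of the first part shows that in a group in which all commutators of weight four are
trivial the product of a word is determined by the numbers of occurrences, modulo the order of
the group, of the words of length at most three as scattered subwords.
-/

namespace Vale.Agent.Results.P329.NilpotentClassThree

open Vale.Agent.Lib.P329

theorem result :
    (∀ (G : Type) [Group G] [Finite G] [Group.IsNilpotent G], Group.nilpotencyClass G ≤ 3 →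
      ∀ (α : Type) [Fintype α] (f : α → G) (S : Set G),
        ∃ E : GRE α, E.height ≤ 1 ∧ E.lang = {w : List α | (w.map f).prod ∈ S}) ∧
    (∀ (α : Type) [Fintype α] [DecidableEq α] (u : List α), u.length ≤ 3 →
      ∀ n : ℕ, 0 < n → ∀ r : ℕ,
        ∃ E : GRE α, E.height ≤ 1 ∧
          E.lang = {w : List α | (List.count u (List.sublists w)) % n = r}) :=
  ⟨fun _ _ _ _ hG _ _ f S => hasHeight_nilpotent_class3 hG f S,
   fun _ _ _ u hu n hn r => hasHeight_sc_mod u hu n hn r⟩

end Vale.Agent.Results.P329.NilpotentClassThree
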