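import Mathlib
import Vale.Agent.Lib.P329.Elementary

/-!
# P329: star-free conditions on a word whose letters are labelled by the values of the
preceding prefix in a finite abelian-by-elementary-abelian group, in a finite aperiodic monoid,
and by a weight of the prefix in a finite commutative group

Let `G` be a finite group with a commutative normal subgroup `N` such that, for some prime `p`,
all commutators and all `p`-th powers of elements of `G` lie in `N` (so `G / N` is an elementary
abelian `p`-group; this holds in particular when `N` has prime index). Let `M` be a finite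
aperiodic monoid, `H` a finite commutative group, `α` a finite alphabet, and `f : α → G`,
`φ : α → M`, `wt : M → α → H` arbitrary maps. For a word `w = a₁ ⋯ a_k` and `1 ≤ i ≤ k` let
`g_i = f a₁ * ⋯ * f a_(i-1)`, `m_i = φ a₁ * ⋯ * φ a_(i-1)` and
`h_i = wt m₁ a₁ * ⋯ * wt m_(i-1) a_(i-1)` be the values of the prefix before the `i`-th letter.
The labelled word of `w` is the word `((g₁, m₁, h₁), a₁) ⋯ ((g_k, m_k, h_k), a_k)` over the
alphabet `(G × M × H) × α` (in the statement `w.inits.zip w` is the list of the pairs consisting
of the prefix before the `i`-th letter and the `i`-th letter). For every star-free expression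
`K` over `(G × M × H) × α`, the language of the words over `α` whose labelled word belongs to
the language of `K` is denoted by a generalized regular expression of star height at most one.
-/

namespace Vale.Agent.Results.P329.StarFreeOverLabels

open Vale.Agent.Lib.P329

theorem result {G : Type} [Group G] [Finite G] (N : Subgroup G) [N.Normal]
    (hN : ∀ a ∈ N, ∀ b ∈ N, a * b = b * a) (p : ℕ) (hp : p.Prime)
    (hcomm : ∀ x y : G, x * y * x⁻¹ * y⁻¹ ∈ N) (hexp : ∀ x : G, x ^ p ∈ N)
    {M : Type} [Monoid M] [Finite M]
    (hM : ∀ x : M, ∃ n : ℕ, 1 ≤ n ∧ x ^ n = x ^ (n + 1))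
    {H : Type} [CommGroup H] [Finite H]
    {α : Type} [Fintype α] (f : α → G) (φ : α → M) (wt : M → α → H)
    (K : GRE ((G × M × H) × α)) (hK : K.height = 0) :
    ∃ E : GRE α, E.height ≤ 1 ∧
      E.lang = {w : List α |
        (w.inits.zip w).map (fun p => (((p.1.map f).prod, (p.1.map φ).prod,
          ((p.1.inits.zip p.1).map (fun r => wt ((r.1.map φ).prod) r.2)).prod), p.2))
            ∈ K.lang} :=
  hasHeight_starFree_over_labels_elementary N hN p hp hcomm hexp
    (fun x => (hM x).imp fun _ h => h.2.symm) f φ wt K hK

end Vale.Agent.Results.P329.StarFreeOverLabels
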